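import Vale.Agent.P235.R2.H453.WallE

set_option linter.all false

/-!
# P235, the wall lemma: the quotient graph and its cut vertices

The walls are contracted to points. The graph distance of the quotient is `dw`, levels are kept,
and each contracted wall separates the component it bounds from the rest.
-/

namespace Vale.Agent.P235.R2.H197

open Vale.Agent.P235.Wall

variable {V : Type} {G : SimpleGraph V} {o : V}

/-- vertices joined by jumps are identified -/
def jset (w : Walls G o) : Setoid V := Relation.EqvGen.setoid (J w)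

/-- the quotient graph -/
def qG (w : Walls G o) : SimpleGraph (Quotient (jset w)) where
  Adj p q := p ≠ q ∧ ∃ a b, Quotient.mk (jset w) a = p ∧ Quotient.mk (jset w) b = q ∧ G.Adj a b
  symm := ⟨fun p q h => ⟨h.1.symm, by
    obtain ⟨a, b, ha, hb, hab⟩ := h.2
    exact ⟨b, a, hb, ha, hab.symm⟩⟩⟩
  loopless := ⟨fun p h => h.1 rfl⟩

variable {w : Walls G o}

lemma mk_eq_of_J {a b : V} (h : J w a b) :
    Quotient.mk (jset w) a = Quotient.mk (jset w) b :=
  Quotient.sound (Relation.EqvGen.rel _ _ h)

/-- classes are joined by free jumps -/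
lemma pth_of_eqv {a b : V} (h : Relation.EqvGen (J w) a b) : Pth w a b 0 := by
  induction h with
  | rel a b h => exact Pth.nil.jump h
  | refl a => exact .nil
  | symm a b _ ih => exact ih.symm
  | trans a b c _ _ ih1 ih2 =>
    have := ih1.trans ih2
    simpa using this

lemma pth_of_mk {a b : V} (h : Quotient.mk (jset w) a = Quotient.mk (jset w) b) :
    Pth w a b 0 := pth_of_eqv (Quotient.exact h)

/-- membership in a component is invariant in a class -/
lemma rch_of_eqv {t : ℕ} {x : V} {a b : V} (h : Relation.EqvGen (J w) a b) :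
    Rch G o t x a ↔ Rch G o t x b := by
  induction h with
  | rel a b h => exact ⟨h.rch, h.symm.rch⟩
  | refl a => exact Iff.rfl
  | symm a b _ ih => exact ih.symm
  | trans a b c _ _ ih1 ih2 => exact ih1.trans ih2

lemma rch_of_mk {t : ℕ} {x a b : V} (h : Quotient.mk (jset w) a = Quotient.mk (jset w) b) :
    Rch G o t x a ↔ Rch G o t x b := rch_of_eqv (Quotient.exact h)

lemma lev_of_mk {a b : V} (h : Quotient.mk (jset w) a = Quotient.mk (jset w) b) :
    lev G o a = lev G o b := by
  have h1 : Relation.EqvGen (J w) a b := Quotient.exact h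
  clear h
  induction h1 with
  | rel a b h => exact h.1
  | refl a => rfl
  | symm a b _ ih => exact ih.symm
  | trans a b c _ _ ih1 ih2 => exact ih1.trans ih2

/-- a path with jumps gives a walk of the quotient graph -/
lemma walk_of_pth {x y : V} {n : ℕ} (h : Pth w x y n) :
    ∃ p : (qG w).Walk (Quotient.mk (jset w) x) (Quotient.mk (jset w) y), p.length ≤ n := by
  induction h with
  | nil => exact ⟨.nil, by simp⟩
  | @edge y z n _ ha ih =>
    obtain ⟨p, hp⟩ := ih
    by_cases hc : Quotient.mk (jset w) y = Quotient.mk (jset w) z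
    · exact ⟨p.copy rfl hc, by rw [SimpleGraph.Walk.length_copy]; omega⟩
    · have hadj : (qG w).Adj (Quotient.mk (jset w) y) (Quotient.mk (jset w) z) :=
        ⟨hc, y, z, rfl, rfl, ha⟩
      refine ⟨p.concat hadj, ?_⟩
      rw [SimpleGraph.Walk.length_concat]
      omega
  | @jump y z n _ hj ih =>
    obtain ⟨p, hp⟩ := ih
    exact ⟨p.copy rfl (mk_eq_of_J hj), by rw [SimpleGraph.Walk.length_copy]; exact hp⟩

/-- a walk of the quotient graph gives a path with jumps -/
lemma pth_of_walk {p q : Quotient (jset w)} (c : (qG w).Walk p q) :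
    ∀ {x y : V}, Quotient.mk (jset w) x = p → Quotient.mk (jset w) y = q →
    Pth w x y c.length := by
  induction c with
  | nil =>
    intro x y hx hy
    exact pth_of_mk (hx.trans hy.symm)
  | @cons p p' q ha c ih =>
    intro x y hx hy
    have hadj' : ∃ a b, Quotient.mk (jset w) a = p ∧ Quotient.mk (jset w) b = p' ∧ G.Adj a b :=
      ha.2
    obtain ⟨a, b, ha', hb', hab⟩ := hadj'
    have h1 : Pth w x a 0 := pth_of_mk (hx.trans ha'.symm)
    have h2 := (h1.edge hab).trans (ih hb' hy)
    rw [SimpleGraph.Walk.length_cons]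
    rwa [show 0 + 1 + c.length = c.length + 1 by omega] at h2

lemma qG_connected (hG : G.Connected) (w : Walls G o) : (qG w).Connected := by
  haveI : Nonempty (Quotient (jset w)) := ⟨Quotient.mk (jset w) o⟩
  refine ⟨fun p q => ?_⟩
  obtain ⟨x, rfl⟩ := Quotient.exists_rep p
  obtain ⟨y, rfl⟩ := Quotient.exists_rep q
  obtain ⟨c, -⟩ := walk_of_pth (w := w) (Pth.of_dist hG x y)
  exact ⟨c⟩

/-- **The graph distance of the quotient graph is the distance with the walls contracted.** -/
theorem qG_dist (hG : G.Connected) (x y : V) :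
    (qG w).dist (Quotient.mk (jset w) x) (Quotient.mk (jset w) y) = dw w x y := by
  apply le_antisymm
  · have hne : {n | Pth w x y n}.Nonempty := ⟨_, Pth.of_dist hG x y⟩
    obtain ⟨c, hc⟩ := walk_of_pth (Nat.sInf_mem hne : Pth w x y _)
    exact (SimpleGraph.dist_le c).trans hc
  · obtain ⟨c, hc⟩ := ((qG_connected hG w) (Quotient.mk (jset w) x)
      (Quotient.mk (jset w) y)).exists_walk_length_eq_dist
    rw [← hc]
    exact Nat.sInf_le (pth_of_walk c rfl rfl)

/-- the quotient map is a contraction -/
theorem qG_dist_le (hG : G.Connected) (x y : V) :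
    (qG w).dist (Quotient.mk (jset w) x) (Quotient.mk (jset w) y) ≤ G.dist x y := by
  rw [qG_dist hG]
  exact Nat.sInf_le (Pth.of_dist hG x y)

/-- levels are kept -/
theorem qG_lev (hG : G.Connected) (x : V) :
    lev (qG w) (Quotient.mk (jset w) o) (Quotient.mk (jset w) x) = lev G o x := by
  apply le_antisymm (qG_dist_le hG o x)
  obtain ⟨c, hc⟩ := ((qG_connected hG w) (Quotient.mk (jset w) o)
    (Quotient.mk (jset w) x)).exists_walk_length_eq_dist
  have h1 := (pth_of_walk c rfl rfl).lev_le hG
  have h2 : lev G o o = 0 := by simp [lev]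
  rw [h2, hc] at h1
  have h3 : lev G o x ≤ (qG w).dist (Quotient.mk (jset w) o) (Quotient.mk (jset w) x) := by
    omega
  exact h3

/-- **A contracted wall is a cut vertex**: a walk of the quotient graph from the component
of `c` in `{lev > s}` to a vertex outside passes the point to which the wall is contracted. -/
theorem cut_vertex (hG : G.Connected) {k : ℕ} {a c : V} (hk : w.W k (lev G o a) a)
    (ha : a ∈ bd G o (lev G o a) c) {p q : Quotient (jset w)} (r : (qG w).Walk p q) :
    ∀ {z v : V}, Quotient.mk (jset w) z = p → Quotient.mk (jset w) v = q →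
    Rch G o (lev G o a) c z → ¬ Rch G o (lev G o a) c v →
    Quotient.mk (jset w) a ∈ r.support := by
  induction r with
  | nil =>
    intro z v hz hv h1 h2
    exact absurd ((rch_of_mk (hz.trans hv.symm)).1 h1) h2
  | @cons p p' q hadj r ih =>
    intro z v hz hv h1 h2
    have hadj' : ∃ a b, Quotient.mk (jset w) a = p ∧ Quotient.mk (jset w) b = p' ∧ G.Adj a b :=
      hadj.2
    obtain ⟨x, y, hx, hy, hxy⟩ := hadj'
    have h3 : Rch G o (lev G o a) c x := (rch_of_mk (hz.trans hx.symm)).1 h1
    rw [SimpleGraph.Walk.support_cons]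
    refine List.mem_cons_of_mem _ ?_
    by_cases hc : Rch G o (lev G o a) c y
    · exact ih hy hv hc h2
    · have h4 : ¬ lev G o a < lev G o y := fun h => hc (h3.step hxy h)
      have h5 := lev_adj (o := o) hG hxy.symm
      have h6 := h3.right
      have h7 : y ∈ bd G o (lev G o a) c := ⟨by omega, x, hxy.symm, h3⟩
      have h8 : J w a y := ⟨by have := h7.1; omega, k, hk, c, ha, h7⟩
      rw [mk_eq_of_J h8, hy]
      exact r.start_mem_support

/-- a class meets the outside of a component of `{lev > s}` or lies inside it -/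
theorem class_inside {t : ℕ} {x a : V} (h : Rch G o t x a) {b : V}
    (hb : Quotient.mk (jset w) b = Quotient.mk (jset w) a) : Rch G o t x b :=
  (rch_of_mk hb).2 h

/-- a class with more than one element is a contracted wall -/
theorem wall_of_class {a b : V} (hne : a ≠ b)
    (h : Quotient.mk (jset w) a = Quotient.mk (jset w) b) :
    ∃ k c, w.W k (lev G o a) a ∧ a ∈ bd G o (lev G o a) c := by
  have h1 : Relation.EqvGen (J w) a b := Quotient.exact h
  have key : ∀ {a b : V}, Relation.EqvGen (J w) a b → a = b ∨
      ((∃ k c, w.W k (lev G o a) a ∧ a ∈ bd G o (lev G o a) c) ∧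
       (∃ k c, w.W k (lev G o b) b ∧ b ∈ bd G o (lev G o b) c)) := by
    intro a b h
    induction h with
    | rel a b h =>
      refine .inr ⟨?_, ?_⟩
      · obtain ⟨_, k, hk, c, hc, _⟩ := h
        exact ⟨k, c, hk, hc⟩
      · obtain ⟨_, k, hk, c, hc, _⟩ := h.symm
        exact ⟨k, c, hk, hc⟩
    | refl a => exact .inl rfl
    | symm a b _ ih =>
      rcases ih with h | ⟨h, h'⟩
      · exact .inl h.symm
      · exact .inr ⟨h', h⟩
    | trans a b c _ _ ih1 ih2 =>
      rcases ih1 with h1 | ⟨h1, h1'⟩
      · subst h1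
        exact ih2
      · rcases ih2 with h2 | ⟨h2, h2'⟩
        · subst h2
          exact .inr ⟨h1, h1'⟩
        · exact .inr ⟨h1, h2'⟩
  rcases key h1 with h2 | ⟨h2, _⟩
  · exact absurd h2 hne
  · exact h2

/-- **The wall lemma with the quotient graphs.** -/
theorem wall_quotient [Finite V] (hG : G.Connected) {N : ℕ} (hN : ∀ v, lev G o v < N) {L : ℝ}
    (hL : 1 ≤ L) (x y : V) :
    (1 - 12 / L) * (G.dist x y : ℝ) ≤ ∑ ω ∈ (box N).powerset, wt L N ω *
      ((qG (walls G o ω)).dist (Quotient.mk (jset (walls G o ω)) x)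
        (Quotient.mk (jset (walls G o ω)) y) : ℝ) := by
  have h := wall_expect hG hN hL x y
  refine h.trans (le_of_eq (Finset.sum_congr rfl fun ω _ => ?_))
  rw [qG_dist hG]

end Vale.Agent.P235.R2.H197
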